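import Vale.Agent.P093.MeanDim

/-!
# P093, part U, block U3: the rate of a sequence from one inequality for all large windows
-/

open Filter Topology Set
open scoped ENNReal

namespace Vale.Agent.P093.U

/-- iterate of the step inequality -/
theorem rate_iter {D : ℕ → ℕ} {N d M₀ : ℕ} (H : ∀ M, M₀ ≤ M → D (M + N) ≤ D M + d) (r k : ℕ)
    (hr : M₀ ≤ r) : D (r + k * N) ≤ D r + k * d := by
  induction k with
  | zero => simp
  | succ k ih =>
    have h1 := H (r + k * N) (hr.trans (Nat.le_add_right _ _))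
    have e : r + (k + 1) * N = r + k * N + N := by ring
    rw [e]
    have e2 : D r + (k + 1) * d = D r + k * d + d := by ring
    rw [e2]
    exact h1.trans (Nat.add_le_add_right ih d)

/-- If `D (M + N) ≤ D M + d` for all large `M` then `limsup D n / n ≤ d / N`. -/
theorem rate_seq {D : ℕ → ℕ} {N d M₀ : ℕ} (hN : 0 < N)
    (H : ∀ M, M₀ ≤ M → D (M + N) ≤ D M + d) :
    limsup (fun n : ℕ => (D n : ℝ≥0∞) / n) atTop ≤ (d : ℝ≥0∞) / N := by
  have hN' : (0 : ℝ) < N := by exact_mod_cast hN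
  -- a uniform bound `D n ≤ B + (n / N) d`
  obtain ⟨B, hB⟩ : ∃ B : ℕ, ∀ n, M₀ ≤ n → D n ≤ B + n / N * d := by
    refine ⟨∑ i ∈ Finset.range (M₀ + N), D i, fun n hn => ?_⟩
    obtain ⟨q, hq⟩ : ∃ q, q = (n - M₀) / N := ⟨_, rfl⟩
    have h1 : N * q ≤ n - M₀ := hq ▸ Nat.mul_div_le (n - M₀) N
    have h2 : n - M₀ < N * (q + 1) := hq ▸ Nat.lt_mul_div_succ (n - M₀) hN
    have h3 : n = (n - q * N) + q * N := by
      have : q * N ≤ n := by
        rw [mul_comm]
        omega
      omega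
    have h4 : M₀ ≤ n - q * N := by
      have : q * N = N * q := mul_comm _ _
      omega
    have h5 : n - q * N < M₀ + N := by
      have e1 : N * (q + 1) = q * N + N := by ring
      omega
    have h6 := rate_iter H (n - q * N) q h4
    rw [← h3] at h6
    have h7 : D (n - q * N) ≤ ∑ i ∈ Finset.range (M₀ + N), D i :=
      Finset.single_le_sum (f := D) (fun _ _ => Nat.zero_le _) (Finset.mem_range.2 h5)
    have h8 : q ≤ n / N := by
      rw [hq]
      exact Nat.div_le_div_right (Nat.sub_le _ _)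
    exact h6.trans (Nat.add_le_add h7 (Nat.mul_le_mul_right d h8))
  have hlim : Tendsto (fun n : ℕ => ENNReal.ofReal ((B : ℝ) / n + (d : ℝ) / N)) atTop
      (𝓝 (ENNReal.ofReal (0 + (d : ℝ) / N))) := by
    refine ENNReal.tendsto_ofReal (Tendsto.add_const _ ?_)
    exact tendsto_const_nhds.div_atTop tendsto_natCast_atTop_atTop
  have e : ENNReal.ofReal (0 + (d : ℝ) / N) = (d : ℝ≥0∞) / N := by
    rw [zero_add, ENNReal.ofReal_div_of_pos hN', ENNReal.ofReal_natCast, ENNReal.ofReal_natCast]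
  rw [← e, ← hlim.limsup_eq]
  refine limsup_le_limsup ?_ (by isBoundedDefault) (by isBoundedDefault)
  filter_upwards [eventually_ge_atTop M₀, eventually_gt_atTop 0] with n hn hn0
  have hn' : (0 : ℝ) < n := by exact_mod_cast hn0
  have h1 : (D n : ℝ) ≤ B + (n / N : ℝ) * d := by
    have h2 : (D n : ℝ) ≤ B + ((n / N : ℕ) : ℝ) * d := by exact_mod_cast hB n hn
    refine h2.trans (add_le_add_right ?_ _)
    exact mul_le_mul_of_nonneg_right Nat.cast_div_le (Nat.cast_nonneg d)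
  have h3 : (D n : ℝ≥0∞) / n = ENNReal.ofReal ((D n : ℝ) / n) := by
    rw [ENNReal.ofReal_div_of_pos hn', ENNReal.ofReal_natCast, ENNReal.ofReal_natCast]
  rw [h3]
  refine ENNReal.ofReal_le_ofReal ?_
  rw [div_le_iff₀ hn']
  have h4 : ((B : ℝ) / n + (d : ℝ) / N) * n = B + (n / N : ℝ) * d := by
    field_simp
  rw [h4]
  exact h1

variable {X : Type*} [TopologicalSpace X]

/-- U3: if, for a finite open cover `𝒰`, adding a window of length `N` costs at most `d` for all
large `M`, then the rate of `𝒰` is at most `d / N`. -/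
theorem rate_of_step (h : X ≃ₜ X) (𝒰 : Set (Set X)) {N d M₀ : ℕ} (hN : 0 < N)
    (H : ∀ M, M₀ ≤ M → coverDim (iterCover h 𝒰 (M + N)) ≤ coverDim (iterCover h 𝒰 M) + d) :
    limsup (fun n : ℕ => (coverDim (iterCover h 𝒰 n) : ℝ≥0∞) / n) atTop ≤ (d : ℝ≥0∞) / N :=
  rate_seq hN H

/-- variant with the new window on the left -/
theorem rate_of_step' (h : X ≃ₜ X) (𝒰 : Set (Set X)) {N d M₀ : ℕ} (hN : 0 < N)
    (H : ∀ M, M₀ ≤ M → coverDim (iterCover h 𝒰 (N + M)) ≤ coverDim (iterCover h 𝒰 M) + d) :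
    limsup (fun n : ℕ => (coverDim (iterCover h 𝒰 n) : ℝ≥0∞) / n) atTop ≤ (d : ℝ≥0∞) / N :=
  rate_seq hN fun M hM => by rw [add_comm]; exact H M hM

/-- subadditive form: every single window bounds the rate. -/
theorem rate_le_of_subadd {D : ℕ → ℕ} (hsub : ∀ m n, D (m + n) ≤ D m + D n) {N : ℕ} (hN : 0 < N) :
    limsup (fun n : ℕ => (D n : ℝ≥0∞) / n) atTop ≤ (D N : ℝ≥0∞) / N :=
  rate_seq (M₀ := 0) hN fun M _ => hsub M N

end Vale.Agent.P093.U
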